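import Vale.Agent.P356.LogMain

/-! Area law up to a logarithm for stoquastic Hamiltonians with a logarithmic Sobolev inequality. -/

namespace Vale.Agent.Results.P356.LogArea

open Vale.Agent.P356

theorem result (q R : ℕ) (hq : 2 ≤ q) (J Δ a : ℝ) (hΔ : 0 < Δ) (ha : 0 < a) : ∃ C : ℝ,
    ∀ (L : ℕ) (H : Matrix (Cfg L q) (Cfg L q) ℂ) (ψ : Cfg L q → ℝ), Stoq R J H → (∀ s, 0 < ψ s) →
    Gapped H (fun s => ψ s) Δ → LSI H ψ a → ∀ A : Finset (Site L),
      ent A (fun s => ψ s) ≤ C * (1 + bdry A : ℝ) * (1 + Real.log (1 + bdry A)) :=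
  stoq_log q R hq J Δ a hΔ ha

end Vale.Agent.Results.P356.LogArea
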