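import Vale.Agent.P356.Main

/-! Boundary concentration of the entanglement spectrum of gapped ground states. -/

namespace Vale.Agent.Results.P356.Spread

open Vale.Agent.P356

theorem result (q R : ℕ) (hq : 2 ≤ q) (J Δ : ℝ) (hΔ : 0 < Δ) : ∃ c > 0, ∀ (L : ℕ)
    (H : Matrix (Cfg L q) (Cfg L q) ℂ) (Ω : Cfg L q → ℂ), Admissible R J H → Gapped H Ω Δ →
    ∀ A : Finset (Site L), Conc (spec A Ω) (ent A Ω) c (1 + bdry A) :=
  main q R hq J Δ hΔ

end Vale.Agent.Results.P356.Spread
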